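import Vale.Agent.P207.N4.Dim
import Vale.Agent.P207.N4.Spec

/-!
# P207, line N3, row R9: stable holonomy of frames

`FrFl`: frames `X` over vectors (or lines) `V`; a vector distance `D` on `V` (any function).  If
the distance of two orbits of vectors is at most `C exp (-χ t)`, then over the second orbit there
is exactly one orbit of frames which is asymptotic to a given orbit of frames over the first one,
and the distance is at most `C' exp (-χ t)`, where `C'` depends only on `C` and `χ`.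
-/

open Set Filter Topology Metric

noncomputable section

namespace Vale.Agent.P207.N4.H395

open Vale.Agent.P207.N3 Vale.Agent.P207.N3.H395

variable [Dim]

/-! ### The orthogonal group of the plane -/

/-- the operator of an orthogonal map -/
def op (a : O2) : E2 →L[ℝ] E2 := (a.toContinuousLinearEquiv : E2 →L[ℝ] E2)

@[simp] theorem op_apply (a : O2) (u : E2) : op a u = a u := rfl

theorem op_injective : Function.Injective op := fun a b h => by
  ext1 u
  have := congrArg (fun F : E2 →L[ℝ] E2 => F u) h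
  exact this

theorem norm_op_sub (a b : O2) : ‖op b - op a‖ = ‖op (a⁻¹ * b) - op 1‖ := by
  have e : ∀ u : E2, (op b - op a) u = a ((op (a⁻¹ * b) - op 1) u) := by
    intro u
    show b u - a u = a (a⁻¹ (b u) - u)
    rw [map_sub]
    congr 1
    exact (a.apply_symm_apply (b u)).symm
  have e' : ∀ u : E2, ‖(op b - op a) u‖ = ‖(op (a⁻¹ * b) - op 1) u‖ := fun u => by
    rw [e u, a.norm_map]
  refine le_antisymm ?_ ?_
  · refine ContinuousLinearMap.opNorm_le_bound _ (norm_nonneg _) fun u => ?_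
    rw [e' u]
    exact ContinuousLinearMap.le_opNorm _ u
  · refine ContinuousLinearMap.opNorm_le_bound _ (norm_nonneg _) fun u => ?_
    rw [← e' u]
    exact ContinuousLinearMap.le_opNorm _ u

/-- the orthogonal group is closed -/
theorem exists_op_eq {b : ℕ → O2} {F : E2 →L[ℝ] E2}
    (h : Tendsto (fun n => op (b n)) atTop (𝓝 F)) : ∃ a : O2, op a = F := by
  have h1 : ∀ u : E2, ‖F u‖ = ‖u‖ := by
    intro u
    have h2 : Tendsto (fun n => ‖op (b n) u‖) atTop (𝓝 ‖F u‖) :=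
      (((ContinuousLinearMap.apply ℝ E2 u).continuous.tendsto F).comp h).norm
    have h3 : (fun n => ‖op (b n) u‖) = fun _ => ‖u‖ := funext fun n => (b n).norm_map u
    rw [h3] at h2
    exact tendsto_nhds_unique h2 tendsto_const_nhds |>.symm ▸ rfl
  let li : E2 →ₗᵢ[ℝ] E2 := ⟨F.toLinearMap, h1⟩
  refine ⟨li.toLinearIsometryEquiv rfl, ?_⟩
  ext1 u
  rfl

/-! ### The data -/

/-- Frames over vectors. -/
structure FrFl (X V : Type) [MetricSpace X] where
  φ : ℝ → X → X
  φ_zero : ∀ x, φ 0 x = x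
  φ_add : ∀ s t x, φ (s + t) x = φ s (φ t x)
  rot : O2 → X → X
  rot_one : ∀ x, rot 1 x = x
  rot_mul : ∀ a b x, rot (a * b) x = rot b (rot a x)
  rot_φ : ∀ a t x, rot a (φ t x) = φ t (rot a x)
  p : X → V
  p_surj : Function.Surjective p
  p_rot : ∀ a x, p (rot a x) = p x
  p_eq : ∀ x y, p x = p y → ∃ a, y = rot a x
  ψ : ℝ → V → V
  p_φ : ∀ t x, p (φ t x) = ψ t (p x)
  /-- a distance of vectors (any function) -/
  D : V → V → ℝ
  D_nonneg : ∀ v w, 0 ≤ D v w
  ε : ℝ
  ε_pos : 0 < ε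
  L : ℝ
  L_pos : 1 ≤ L
  speed : ∀ t ∈ Icc (0 : ℝ) 1, ∀ x, dist (φ t x) x ≤ L
  lip : ∀ t ∈ Icc (0 : ℝ) 1, ∀ x y, dist x y ≤ ε → dist (φ t x) (φ t y) ≤ L * dist x y
  near : ∀ x v, D (p x) v ≤ ε → ∃ y, p y = v ∧ dist x y ≤ L * D (p x) v
  rot_up : ∀ a x, dist (rot a x) x ≤ L * ‖op a - op 1‖
  rot_low : ∀ a x, ‖op a - op 1‖ ≤ L * dist (rot a x) x

variable {X V : Type} [MetricSpace X]

namespace FrFl

variable (S : FrFl X V)

theorem rot_up' (a b : O2) (x : X) : dist (S.rot b x) (S.rot a x) ≤ S.L * ‖op b - op a‖ := by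
  have h := S.rot_up (a⁻¹ * b) (S.rot a x)
  rwa [← S.rot_mul, mul_inv_cancel_left, ← norm_op_sub] at h

theorem rot_low' (a b : O2) (x : X) : ‖op b - op a‖ ≤ S.L * dist (S.rot b x) (S.rot a x) := by
  have h := S.rot_low (a⁻¹ * b) (S.rot a x)
  rwa [← S.rot_mul, mul_inv_cancel_left, ← norm_op_sub] at h

/-- **Uniqueness.** -/
theorem unique {x y y' : X} (hp : S.p y = S.p y')
    (h : Tendsto (fun t : ℝ => dist (S.φ t x) (S.φ t y)) atTop (𝓝 0))
    (h' : Tendsto (fun t : ℝ => dist (S.φ t x) (S.φ t y')) atTop (𝓝 0)) : y = y' := by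
  obtain ⟨a, rfl⟩ := S.p_eq y y' hp
  have h1 : ∀ t : ℝ, ‖op a - op 1‖ ≤ S.L * (dist (S.φ t x) (S.φ t y) +
      dist (S.φ t x) (S.φ t (S.rot a y))) := by
    intro t
    refine (S.rot_low a (S.φ t y)).trans (mul_le_mul_of_nonneg_left ?_ (zero_le_one.trans S.L_pos))
    rw [S.rot_φ]
    calc dist (S.φ t (S.rot a y)) (S.φ t y) ≤
        dist (S.φ t (S.rot a y)) (S.φ t x) + dist (S.φ t x) (S.φ t y) := dist_triangle _ _ _
      _ = _ := by rw [dist_comm (S.φ t (S.rot a y)), add_comm]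
  have h2 : Tendsto (fun t : ℝ => S.L * (dist (S.φ t x) (S.φ t y) +
      dist (S.φ t x) (S.φ t (S.rot a y)))) atTop (𝓝 (S.L * (0 + 0))) :=
    (h.add h').const_mul _
  have h3 : ‖op a - op 1‖ ≤ S.L * (0 + 0) := ge_of_tendsto' h2 h1
  have h4 : op a = op 1 := by
    rw [← sub_eq_zero, ← norm_le_zero_iff]
    simpa using h3
  rw [op_injective h4, S.rot_one]

theorem speed' (n : ℕ) {t : ℝ} (ht : 0 ≤ t) (htn : t ≤ n) (x : X) :
    dist (S.φ t x) x ≤ n * S.L := by
  induction n generalizing t x with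
  | zero =>
    have : t = 0 := le_antisymm (by simpa using htn) ht
    rw [this, S.φ_zero, dist_self]
    simp
  | succ n ih =>
    rcases le_or_gt t 1 with h | h
    · refine (S.speed t ⟨ht, h⟩ x).trans ?_
      have := zero_le_one.trans S.L_pos
      have h2 : (0 : ℝ) ≤ n := n.cast_nonneg
      push_cast
      nlinarith
    · have h1 := ih (t := t - 1) (by linarith) (by push_cast at htn; linarith) (S.φ 1 x)
      have h2 := S.speed 1 ⟨zero_le_one, le_rfl⟩ x
      rw [← S.φ_add, sub_add_cancel] at h1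
      calc dist (S.φ t x) x ≤ dist (S.φ t x) (S.φ 1 x) + dist (S.φ 1 x) x := dist_triangle _ _ _
        _ ≤ n * S.L + S.L := add_le_add h1 h2
        _ = _ := by push_cast; ring

/-- **Existence, with a uniform rate.** -/
theorem exists_asym {C χ : ℝ} (hC : 0 ≤ C) (hχ : 0 < χ) : ∃ C' : ℝ, 0 ≤ C' ∧ ∀ (x : X) (v : V),
    (∀ t : ℝ, 0 ≤ t → S.D (S.ψ t (S.p x)) (S.ψ t v) ≤ C * Real.exp (-χ * t)) →
    ∃ y, S.p y = v ∧ ∀ t : ℝ, 0 ≤ t → dist (S.φ t x) (S.φ t y) ≤ C' * Real.exp (-χ * t) := by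
  have hL := zero_le_one.trans S.L_pos
  set L := S.L with hLdef
  set r : ℝ := Real.exp (-χ) with hr
  have hr0 : 0 < r := Real.exp_pos _
  have hr1 : r < 1 := by
    rw [hr, ← Real.exp_zero]
    exact Real.exp_lt_exp.2 (by linarith)
  have hrn : ∀ n : ℕ, Real.exp (-χ * n) = r ^ n := fun n => by
    rw [hr, ← Real.exp_nat_mul]; congr 1; ring
  -- the constants
  set K : ℝ := L * (L + 1) * (L * C) with hK
  have hK0 : 0 ≤ K := by positivity
  set C2 : ℝ := L * C + L * (K / (1 - r)) with hC2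
  have h1r : 0 < 1 - r := by linarith
  have hC20 : 0 ≤ C2 := by positivity
  -- the starting time
  obtain ⟨N, hN⟩ : ∃ N : ℕ, (L * C + C + C2) * r ^ N ≤ S.ε := by
    have h1 : Tendsto (fun n : ℕ => (L * C + C + C2) * r ^ n) atTop (𝓝 ((L * C + C + C2) * 0)) :=
      (tendsto_pow_atTop_nhds_zero_of_lt_one hr0.le hr1).const_mul _
    rw [mul_zero] at h1
    exact ((h1.eventually (ge_mem_nhds S.ε_pos)).exists)
  set C1 : ℝ := L * C2 * Real.exp χ with hC1
  set M : ℝ := (N * L + S.ε + N * L) * Real.exp (χ * N) with hM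
  have hM0 : 0 ≤ M := by have := S.ε_pos; positivity
  have hC10 : 0 ≤ C1 := by positivity
  refine ⟨C1 + M, add_nonneg hC10 hM0, fun x v hv => ?_⟩
  obtain ⟨w, rfl⟩ := S.p_surj v
  have hrN : ∀ m : ℕ, r ^ (N + m) ≤ r ^ N := fun m =>
    pow_le_pow_of_le_one hr0.le hr1.le (Nat.le_add_right _ _)
  -- the rotations
  have hb : ∀ m : ℕ, ∃ b : O2, dist (S.φ ((N + m : ℕ) : ℝ) x)
      (S.rot b (S.φ ((N + m : ℕ) : ℝ) w)) ≤ L * C * r ^ (N + m) := by
    intro m
    have h1 := hv ((N + m : ℕ) : ℝ) (Nat.cast_nonneg _)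
    rw [hrn, ← S.p_φ, ← S.p_φ] at h1
    have h2 : C * r ^ (N + m) ≤ S.ε := by
      refine le_trans ?_ hN
      have h3 := hrN m
      have h4 : 0 < r ^ (N + m) := pow_pos hr0 _
      have h5 : 0 ≤ L * C + C2 := by positivity
      nlinarith [mul_le_mul_of_nonneg_left h3 hC, mul_nonneg h5 (pow_pos hr0 N).le]
    obtain ⟨y, hy, hd⟩ := S.near _ _ (h1.trans h2)
    obtain ⟨b, rfl⟩ := S.p_eq _ _ hy.symm
    refine ⟨b, hd.trans ?_⟩
    rw [mul_assoc]
    exact mul_le_mul_of_nonneg_left h1 hL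
  choose b hbd using hb
  have hstep : ∀ m : ℕ, dist (op (b m)) (op (b (m + 1))) ≤ K * r ^ N * r ^ m := by
    intro m
    have e1 : ((N + (m + 1) : ℕ) : ℝ) = 1 + ((N + m : ℕ) : ℝ) := by push_cast; ring
    have h1 := hbd (m + 1)
    have h0 := hbd m
    have hsm : dist (S.φ ((N + m : ℕ) : ℝ) x) (S.rot (b m) (S.φ ((N + m : ℕ) : ℝ) w)) ≤ S.ε := by
      refine h0.trans (le_trans ?_ hN)
      have h3 := hrN m
      have h5 : 0 ≤ C + C2 := by positivity
      have h6 : 0 ≤ L * C := by positivity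
      nlinarith [mul_le_mul_of_nonneg_left h3 h6, mul_nonneg h5 (pow_pos hr0 N).le]
    have h2 := S.lip 1 ⟨zero_le_one, le_rfl⟩ _ _ hsm
    rw [← S.φ_add, ← S.rot_φ, ← S.φ_add, ← e1] at h2
    have h3 := S.rot_low' (b m) (b (m + 1)) (S.φ ((N + (m + 1) : ℕ) : ℝ) w)
    rw [dist_comm, dist_eq_norm]
    refine h3.trans ?_
    have h4 : dist (S.rot (b (m + 1)) (S.φ ((N + (m + 1) : ℕ) : ℝ) w))
        (S.rot (b m) (S.φ ((N + (m + 1) : ℕ) : ℝ) w)) ≤ (L + 1) * (L * C * r ^ (N + m)) := by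
      refine (dist_triangle_left _ _ (S.φ ((N + (m + 1) : ℕ) : ℝ) x)).trans ?_
      have h5 : r ^ (N + (m + 1)) ≤ r ^ (N + m) :=
        pow_le_pow_of_le_one hr0.le hr1.le (by omega)
      have h6 : L * C * r ^ (N + (m + 1)) ≤ L * C * r ^ (N + m) :=
        mul_le_mul_of_nonneg_left h5 (by positivity)
      have h7 : S.L * dist (S.φ ((N + m : ℕ) : ℝ) x) (S.rot (b m) (S.φ ((N + m : ℕ) : ℝ) w)) ≤
          L * (L * C * r ^ (N + m)) := mul_le_mul_of_nonneg_left h0 hL
      linarith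
    refine (mul_le_mul_of_nonneg_left h4 hL).trans (le_of_eq ?_)
    rw [hK, pow_add]
    ring
  have hcau := cauchySeq_of_le_geometric r (K * r ^ N) hr1 hstep
  obtain ⟨F, hF⟩ := cauchySeq_tendsto_of_complete hcau
  obtain ⟨a, rfl⟩ := exists_op_eq hF
  have hlim : ∀ m, dist (op (b m)) (op a) ≤ K * r ^ N * r ^ m / (1 - r) := fun m =>
    dist_le_of_le_geometric_of_tendsto r (K * r ^ N) hr1 hstep hF m
  refine ⟨S.rot a w, S.p_rot a w, ?_⟩
  -- integer times
  have hint : ∀ m : ℕ, dist (S.φ ((N + m : ℕ) : ℝ) x) (S.φ ((N + m : ℕ) : ℝ) (S.rot a w)) ≤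
      C2 * r ^ (N + m) := by
    intro m
    rw [← S.rot_φ]
    refine (dist_triangle _ (S.rot (b m) (S.φ ((N + m : ℕ) : ℝ) w)) _).trans ?_
    have h1 := S.rot_up' a (b m) (S.φ ((N + m : ℕ) : ℝ) w)
    rw [← dist_eq_norm] at h1
    have h2 := h1.trans (mul_le_mul_of_nonneg_left (hlim m) hL)
    refine (add_le_add (hbd m) h2).trans (le_of_eq ?_)
    rw [hC2, pow_add]
    ring
  intro t ht
  rcases le_or_gt (N : ℝ) t with hNt | hNt
  · -- large times
    set m : ℕ := ⌊t - N⌋₊ with hm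
    have h0 : (0 : ℝ) ≤ t - N := by linarith
    have h1 : (m : ℝ) ≤ t - N := Nat.floor_le h0
    have h2 : t - N < m + 1 := Nat.lt_floor_add_one _
    set s : ℝ := t - ((N + m : ℕ) : ℝ) with hs
    have hs0 : 0 ≤ s := by rw [hs]; push_cast; linarith
    have hs1 : s ≤ 1 := by rw [hs]; push_cast; linarith
    have e1 : t = s + ((N + m : ℕ) : ℝ) := by rw [hs]; ring
    have h3 := hint m
    have hsm : dist (S.φ ((N + m : ℕ) : ℝ) x) (S.φ ((N + m : ℕ) : ℝ) (S.rot a w)) ≤ S.ε := by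
      refine h3.trans (le_trans ?_ hN)
      have h4 := hrN m
      have h5 : 0 ≤ L * C + C := by positivity
      nlinarith [mul_le_mul_of_nonneg_left h4 hC20, mul_nonneg h5 (pow_pos hr0 N).le]
    have h4 := S.lip s ⟨hs0, hs1⟩ _ _ hsm
    rw [← S.φ_add, ← S.φ_add, ← e1] at h4
    have h5 : r ^ (N + m) ≤ Real.exp χ * Real.exp (-χ * t) := by
      rw [← hrn, ← Real.exp_add]
      refine Real.exp_le_exp.2 ?_
      rw [e1]
      nlinarith
    calc dist (S.φ t x) (S.φ t (S.rot a w)) ≤ L * (C2 * r ^ (N + m)) :=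
          h4.trans (mul_le_mul_of_nonneg_left h3 hL)
      _ ≤ L * (C2 * (Real.exp χ * Real.exp (-χ * t))) :=
          mul_le_mul_of_nonneg_left (mul_le_mul_of_nonneg_left h5 hC20) hL
      _ = C1 * Real.exp (-χ * t) := by rw [hC1]; ring
      _ ≤ (C1 + M) * Real.exp (-χ * t) :=
          mul_le_mul_of_nonneg_right (by linarith) (Real.exp_pos _).le
  · -- small times
    have e1 : ∀ z : X, S.φ (N : ℝ) z = S.φ (N - t) (S.φ t z) := fun z => by
      rw [← S.φ_add, sub_add_cancel]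
    have h1 : ∀ z : X, dist (S.φ (N : ℝ) z) (S.φ t z) ≤ N * L := fun z => by
      rw [e1 z]
      exact S.speed' N (by linarith) (by linarith) _
    have h2 : dist (S.φ (N : ℝ) x) (S.φ (N : ℝ) (S.rot a w)) ≤ S.ε := by
      have h3 := hint 0
      rw [add_zero] at h3
      refine h3.trans (le_trans ?_ hN)
      have h5 : 0 ≤ L * C + C := by positivity
      nlinarith [mul_nonneg h5 (pow_pos hr0 N).le]
    have h3 : dist (S.φ t x) (S.φ t (S.rot a w)) ≤ N * L + S.ε + N * L := by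
      calc dist (S.φ t x) (S.φ t (S.rot a w)) ≤ dist (S.φ t x) (S.φ (N : ℝ) x) +
            dist (S.φ (N : ℝ) x) (S.φ (N : ℝ) (S.rot a w)) +
            dist (S.φ (N : ℝ) (S.rot a w)) (S.φ t (S.rot a w)) := dist_triangle4 _ _ _ _
        _ ≤ N * L + S.ε + N * L := by
            refine add_le_add (add_le_add ?_ h2) (h1 _)
            rw [dist_comm]
            exact h1 x
    have h4 : 1 ≤ Real.exp (χ * N) * Real.exp (-χ * t) := by
      rw [← Real.exp_add]
      refine Real.one_le_exp ?_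
      nlinarith
    have h5 : 0 ≤ N * L + S.ε + N * L := by have := S.ε_pos; positivity
    calc dist (S.φ t x) (S.φ t (S.rot a w)) ≤ (N * L + S.ε + N * L) * 1 := by rwa [mul_one]
      _ ≤ (N * L + S.ε + N * L) * (Real.exp (χ * N) * Real.exp (-χ * t)) :=
          mul_le_mul_of_nonneg_left h4 h5
      _ = M * Real.exp (-χ * t) := by rw [hM]; ring
      _ ≤ (C1 + M) * Real.exp (-χ * t) :=
          mul_le_mul_of_nonneg_right (by linarith) (Real.exp_pos _).le

end FrFl

end Vale.Agent.P207.N4.H395
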